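import Mathlib

/-!
P147: nearest neighbour random walk in a random environment on `ℤ^d`.
-/

open MeasureTheory

namespace Vale.Agent.P147

/-- the `2 d` unit steps of `ℤ^d`, indexed by coordinate and sign -/
def stp {d : ℕ} (e : Fin d × Bool) : Fin d → ℤ := Pi.single e.1 (if e.2 then 1 else -1)

/-- the Euclidean inner product `l · x` -/
noncomputable def ip {d : ℕ} (l : Fin d → ℝ) (x : Fin d → ℤ) : ℝ := ∑ i, l i * (x i : ℝ)

/-- `X` is a nearest neighbour random walk started at `0` in the random environment `env`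
(`env ω x e` is the transition probability from `x` to `x + stp e` in the environment of `ω`)
under the annealed law `μ`: the environment is known at time `0`, and given the past up to
time `n` (which contains the environment) the walk makes the step `e` with probability
`env ω (X n ω) e`.  (Deterministic `env`: the quenched law.) -/
structure IsRWRE {d : ℕ} {Ω : Type} {mΩ : MeasurableSpace Ω} (μ : Measure Ω)
    (ℱ : Filtration ℕ mΩ) (env : Ω → (Fin d → ℤ) → Fin d × Bool → ℝ)
    (X : ℕ → Ω → Fin d → ℤ) : Prop where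
  env_meas : ∀ x e, Measurable[ℱ 0] (fun ω => env ω x e)
  adapted : ∀ n, Measurable[ℱ n] (X n)
  start : ∀ᵐ ω ∂μ, X 0 ω = 0
  step : ∀ n, ∀ᵐ ω ∂μ, ∃ e, X (n + 1) ω = X n ω + stp e
  trans : ∀ n e, μ[({ω | X (n + 1) ω = X n ω + stp e}).indicator (fun _ => (1 : ℝ)) | ℱ n]
    =ᵐ[μ] fun ω => env ω (X n ω) e

/-- the event `A_l` of escape in the direction `l` -/
def esc {d : ℕ} {Ω : Type} (l : Fin d → ℝ) (X : ℕ → Ω → Fin d → ℤ) : Set Ω :=
  {ω | Filter.Tendsto (fun n => ip l (X n ω)) Filter.atTop Filter.atTop}

end Vale.Agent.P147
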