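import Vale.Agent.P147.Defs

/-!
P147: nonnegative local drift up to a coboundary excludes escape in the opposite direction.
-/

open MeasureTheory Filter Topology

namespace Vale.Agent.P147

theorem stp_inj {d : ℕ} : Function.Injective (stp : Fin d × Bool → Fin d → ℤ) := by
  rintro ⟨i, b⟩ ⟨j, c⟩ h
  have h1 := congrFun h i
  by_cases hij : i = j
  · subst hij
    simp only [stp, Pi.single_eq_same] at h1
    cases b <;> cases c <;> simp_all
  · simp only [stp, Pi.single_eq_same, Pi.single_eq_of_ne hij] at h1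
    cases b <;> simp_all

theorem ip_add {d : ℕ} (l : Fin d → ℝ) (x y : Fin d → ℤ) : ip l (x + y) = ip l x + ip l y := by
  simp only [ip, Pi.add_apply, Int.cast_add, mul_add, Finset.sum_add_distrib]

theorem ip_stp {d : ℕ} (l : Fin d → ℝ) (e : Fin d × Bool) : |ip l (stp e)| ≤ ∑ i, |l i| := by
  rw [ip]
  refine (Finset.abs_sum_le_sum_abs _ _).trans (Finset.sum_le_sum fun i _ => ?_)
  rw [abs_mul]
  refine mul_le_of_le_one_right (abs_nonneg _) ?_
  by_cases h : i = e.1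
  · subst h
    simp only [stp, Pi.single_eq_same]
    split_ifs <;> simp
  · simp [stp, Pi.single_eq_of_ne h]

theorem meas_comp {d : ℕ} {Ω : Type} {m : MeasurableSpace Ω} {f : Ω → Fin d → ℤ}
    (hf : Measurable[m] f) {u : Ω → (Fin d → ℤ) → ℝ} (hu : ∀ x, Measurable[m] fun ω => u ω x) :
    Measurable[m] fun ω => u ω (f ω) := by
  intro s hs
  have h : (fun ω => u ω (f ω)) ⁻¹' s = ⋃ x, (f ⁻¹' {x} ∩ (fun ω => u ω x) ⁻¹' s) := by
    ext ω
    simp
  rw [h]
  exact MeasurableSet.iUnion fun x => (hf (measurableSet_singleton x)).inter (hu x hs)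

variable {d : ℕ} {Ω : Type} {mΩ : MeasurableSpace Ω} {μ : Measure Ω} [IsProbabilityMeasure μ]
  {ℱ : Filtration ℕ mΩ} {env : Ω → (Fin d → ℤ) → Fin d × Bool → ℝ} {X : ℕ → Ω → Fin d → ℤ}

/-- the potential `l · x + u` along the walk -/
noncomputable def Y (l : Fin d → ℝ) (u : Ω → (Fin d → ℤ) → ℝ) (X : ℕ → Ω → Fin d → ℤ)
    (n : ℕ) (ω : Ω) : ℝ := ip l (X n ω) + u ω (X n ω)

/-- the increment for the step `e` -/
noncomputable def D (l : Fin d → ℝ) (u : Ω → (Fin d → ℤ) → ℝ) (X : ℕ → Ω → Fin d → ℤ)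
    (n : ℕ) (e : Fin d × Bool) (ω : Ω) : ℝ :=
  ip l (stp e) + u ω (X n ω + stp e) - u ω (X n ω)

/-- the indicator of the step `e` -/
noncomputable def I (X : ℕ → Ω → Fin d → ℤ) (n : ℕ) (e : Fin d × Bool) : Ω → ℝ :=
  ({ω | X (n + 1) ω = X n ω + stp e}).indicator (fun _ => (1 : ℝ))

theorem meas_Y (h : IsRWRE μ ℱ env X) (l : Fin d → ℝ) {u : Ω → (Fin d → ℤ) → ℝ}
    (hu : ∀ x, Measurable[ℱ 0] fun ω => u ω x) (n : ℕ) : Measurable[ℱ n] (Y l u X n) := by
  have hu' : ∀ x, Measurable[ℱ n] fun ω => u ω x := fun x => (hu x).mono (ℱ.mono (Nat.zero_le n)) le_rfl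
  exact meas_comp (h.adapted n) (u := fun ω x => ip l x + u ω x) fun x => (hu' x).const_add _

theorem meas_D (h : IsRWRE μ ℱ env X) (l : Fin d → ℝ) {u : Ω → (Fin d → ℤ) → ℝ}
    (hu : ∀ x, Measurable[ℱ 0] fun ω => u ω x) (n : ℕ) (e : Fin d × Bool) :
    Measurable[ℱ n] (D l u X n e) := by
  have hu' : ∀ x, Measurable[ℱ n] fun ω => u ω x := fun x => (hu x).mono (ℱ.mono (Nat.zero_le n)) le_rfl
  exact meas_comp (h.adapted n) (u := fun ω x => ip l (stp e) + u ω (x + stp e) - u ω x)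
    fun x => ((hu' _).const_add _).sub (hu' x)

theorem incr (h : IsRWRE μ ℱ env X) (l : Fin d → ℝ) (u : Ω → (Fin d → ℤ) → ℝ) (n : ℕ) :
    ∀ᵐ ω ∂μ, ∃ e, Y l u X (n + 1) ω - Y l u X n ω = D l u X n e ω ∧
      ∑ e, D l u X n e ω * I X n e ω = D l u X n e ω := by
  filter_upwards [h.step n] with ω ⟨e, he⟩
  refine ⟨e, ?_, ?_⟩
  · simp only [Y, D, he, ip_add]
    ring
  · rw [Finset.sum_eq_single e]
    · have h1 : I X n e ω = 1 := by
        have h0 : ω ∈ {ω | X (n + 1) ω = X n ω + stp e} := he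
        exact Set.indicator_of_mem h0 _
      rw [h1, mul_one]
    · intro e' _ hne
      have h1 : I X n e' ω = 0 := by
        refine Set.indicator_of_notMem ?_ _
        intro h2
        have h3 : X (n + 1) ω = X n ω + stp e' := h2
        rw [he] at h3
        exact hne (stp_inj (add_left_cancel h3)).symm
      rw [h1, mul_zero]
    · simp

theorem bound_D {l : Fin d → ℝ} {u : Ω → (Fin d → ℤ) → ℝ} {R : ℝ}
    (hR : ∀ ω x e, |u ω (x + stp e) - u ω x| ≤ R) (n : ℕ) (e : Fin d × Bool) (ω : Ω) :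
    |D l u X n e ω| ≤ (∑ i, |l i|) + R := by
  have h1 := ip_stp l e
  have h2 := hR ω (X n ω) e
  rw [D, add_sub_assoc]
  exact (abs_add_le _ _).trans (add_le_add h1 h2)

/-- the potential started at `0` -/
noncomputable def Z (l : Fin d → ℝ) (u : Ω → (Fin d → ℤ) → ℝ) (X : ℕ → Ω → Fin d → ℤ)
    (n : ℕ) (ω : Ω) : ℝ := Y l u X n ω - Y l u X 0 ω

theorem bound_Z (h : IsRWRE μ ℱ env X) {l : Fin d → ℝ} {u : Ω → (Fin d → ℤ) → ℝ} {R : ℝ}
    (hR : ∀ ω x e, |u ω (x + stp e) - u ω x| ≤ R) (n : ℕ) :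
    ∀ᵐ ω ∂μ, ‖Z l u X n ω‖ ≤ n * ((∑ i, |l i|) + R) := by
  induction n with
  | zero =>
    refine Eventually.of_forall fun ω => ?_
    simp [Z]
  | succ n ih =>
    filter_upwards [ih, incr h l u n] with ω h1 ⟨e, h2, _⟩
    have h3 : Z l u X (n + 1) ω = Z l u X n ω + D l u X n e ω := by
      rw [← h2, Z, Z]
      ring
    rw [h3]
    refine (norm_add_le _ _).trans ?_
    have h4 : ‖D l u X n e ω‖ ≤ (∑ i, |l i|) + R := bound_D hR n e ω
    push_cast
    linarith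

theorem subm (h : IsRWRE μ ℱ env X) {l : Fin d → ℝ} {u : Ω → (Fin d → ℤ) → ℝ} {R : ℝ}
    (hu : ∀ x, Measurable[ℱ 0] fun ω => u ω x)
    (hR : ∀ ω x e, |u ω (x + stp e) - u ω x| ≤ R)
    (hd : ∀ᵐ ω ∂μ, ∀ x, 0 ≤ ∑ e, env ω x e * (ip l (stp e) + u ω (x + stp e) - u ω x)) :
    Submartingale (Z l u X) ℱ μ := by
  have hmZ : ∀ n, Measurable[ℱ n] (Z l u X n) := fun n =>
    (meas_Y h l hu n).sub ((meas_Y h l hu 0).mono (ℱ.mono (Nat.zero_le n)) le_rfl)
  have hint : ∀ n, Integrable (Z l u X n) μ := fun n =>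
    Integrable.of_bound ((hmZ n).mono (ℱ.le n) le_rfl).aestronglyMeasurable _ (bound_Z h hR n)
  have hmI : ∀ n e, Integrable (I X n e) μ := by
    intro n e
    refine (integrable_const (1 : ℝ)).indicator ?_
    have h1 : Measurable (X (n + 1)) := (h.adapted (n + 1)).mono (ℱ.le _) le_rfl
    have h2 : Measurable (fun ω => X n ω + stp e) :=
      ((h.adapted n).mono (ℱ.le _) le_rfl).add_const _
    exact measurableSet_eq_fun h1 h2
  refine submartingale_of_condExp_sub_nonneg_nat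
    (fun n => (hmZ n).stronglyMeasurable) hint fun n => ?_
  have e1 : Z l u X (n + 1) - Z l u X n =ᵐ[μ] ∑ e, (D l u X n e * I X n e) := by
    filter_upwards [incr h l u n] with ω ⟨e, h2, h3⟩
    rw [Finset.sum_apply]
    simp only [Pi.sub_apply, Pi.mul_apply]
    rw [h3, ← h2, Z, Z]
    ring
  have hDI : ∀ e, Integrable (D l u X n e * I X n e) μ := by
    intro e
    refine (hmI n e).bdd_mul (c := (∑ i, |l i|) + R) ?_ ?_
    · exact ((meas_D h l hu n e).mono (ℱ.le n) le_rfl).aestronglyMeasurable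
    · exact Eventually.of_forall fun ω => bound_D hR n e ω
  have e2 : μ[Z l u X (n + 1) - Z l u X n | ℱ n] =ᵐ[μ] ∑ e, μ[D l u X n e * I X n e | ℱ n] :=
    (condExp_congr_ae e1).trans (condExp_finsetSum (fun e _ => hDI e) _)
  have e3 : ∀ᵐ ω ∂μ, ∀ e, (μ[D l u X n e * I X n e | ℱ n]) ω =
      D l u X n e ω * env ω (X n ω) e := by
    rw [ae_all_iff]
    intro e
    have h1 := condExp_mul_of_stronglyMeasurable_left (μ := μ)
      (meas_D h l hu n e).stronglyMeasurable (hDI e) (hmI n e)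
    filter_upwards [h1, h.trans n e] with ω h2 h3
    rw [h2, Pi.mul_apply]
    congr 1
  filter_upwards [e2, e3, hd] with ω h1 h2 h3
  rw [h1, Finset.sum_apply]
  simp only [h2]
  have h4 := h3 (X n ω)
  simp only [Pi.zero_apply]
  refine h4.trans (le_of_eq (Finset.sum_congr rfl fun e _ => ?_))
  rw [D, mul_comm]

theorem main (h : IsRWRE μ ℱ env X) {l : Fin d → ℝ} {u : Ω → (Fin d → ℤ) → ℝ} {R : ℝ}
    (hu : ∀ x, Measurable[ℱ 0] fun ω => u ω x) (hC : ∀ ω, BddAbove (Set.range (u ω)))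
    (hR : ∀ ω x e, |u ω (x + stp e) - u ω x| ≤ R)
    (hd : ∀ᵐ ω ∂μ, ∀ x, 0 ≤ ∑ e, env ω x e * (ip l (stp e) + u ω (x + stp e) - u ω x)) :
    ∀ᵐ ω ∂μ, ¬ Tendsto (fun n => ip l (X n ω)) atTop atBot := by
  have hs := subm h hu hR hd
  have hb : ∀ᵐ ω ∂μ, ∀ n, |Z l u X (n + 1) ω - Z l u X n ω| ≤
      ((Real.toNNReal ((∑ i, |l i|) + |R|) : NNReal) : ℝ) := by
    rw [ae_all_iff]
    intro n
    filter_upwards [incr h l u n] with ω ⟨e, h2, _⟩
    have h3 : Z l u X (n + 1) ω - Z l u X n ω = D l u X n e ω := by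
      rw [← h2, Z, Z]
      ring
    rw [h3, Real.coe_toNNReal _ (by positivity)]
    exact (bound_D hR n e ω).trans (by linarith [le_abs_self R])
  filter_upwards [hs.bddAbove_iff_exists_tendsto hb] with ω h1 h2
  obtain ⟨C, hCω⟩ := hC ω
  have h3 : Tendsto (fun n => Z l u X n ω) atTop atBot := by
    have h4 : Tendsto (fun n => ip l (X n ω) + (C - Y l u X 0 ω)) atTop atBot :=
      tendsto_atBot_add_const_right _ _ h2
    refine tendsto_atBot_mono (fun n => ?_) h4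
    have h5 : u ω (X n ω) ≤ C := hCω ⟨X n ω, rfl⟩
    rw [Z, Y]
    linarith
  obtain ⟨c, hc⟩ := h1.1 (by
    have h6 : BddAbove (Set.range fun n => Z l u X n ω) := by
      obtain ⟨N, hN⟩ := (eventually_atTop.1 (h3.eventually (eventually_le_atBot 0)))
      refine ⟨max 0 (∑ n ∈ Finset.range N, |Z l u X n ω|), ?_⟩
      rintro y ⟨n, rfl⟩
      by_cases hn : N ≤ n
      · exact (hN n hn).trans (le_max_left _ _)
      · have h7 : |Z l u X n ω| ≤ ∑ n ∈ Finset.range N, |Z l u X n ω| :=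
          Finset.single_le_sum (f := fun n => |Z l u X n ω|) (fun _ _ => abs_nonneg _)
            (Finset.mem_range.2 (not_le.1 hn))
        exact (le_abs_self _).trans (h7.trans (le_max_right _ _))
    exact h6)
  exact not_tendsto_nhds_of_tendsto_atBot h3 c hc

end Vale.Agent.P147
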